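import Vale.Agent.P032.H838.GTr
import Vale.Agent.P032.H623.NsC

/-!
# P032: `NsC` is invariant under names and turns
-/

noncomputable section

namespace Vale.Agent.P032.H567

open Vale.Agent.P032.Six Vale.Agent.P032.H429 Vale.Agent.P032.H158 Vale.Agent.P032.H728
  Vale.Agent.P032.H728.G Vale.Agent.P032.H838.GTr Vale.Agent.P032.H623

/-- the relation `NsC` is invariant under names and turns -/
theorem nsC_T (σ : Equiv.Perm (Fin 6)) (k : ℕ) {s s' : St} (h : NsC s.1 s'.1) :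
    NsC (T σ k s).1 (T σ k s').1 := by
  obtain ⟨h1, h2, h3⟩ := h
  have c : ∀ (s : St) (j : Fin 6), (T σ k s).1 j =
      (σ (s.1 (j + Fin.ofNat 6 k)).1, σ (s.1 (j + Fin.ofNat 6 k)).2) := T_col σ k
  have e1 : ∀ j : Fin 6, j + 1 + Fin.ofNat 6 k = j + Fin.ofNat 6 k + 1 := fun j => by
    rw [add_right_comm]
  have e2 : ∀ j : Fin 6, j - Fin.ofNat 6 k + Fin.ofNat 6 k = j := fun j => sub_add_cancel _ _
  have a1 : ∀ (s s' : St) (j : Fin 6), mt ((T σ k s).1 j) ((T σ k s').1 (j + 1)) ↔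
      mt (s.1 (j + Fin.ofNat 6 k)) (s'.1 (j + Fin.ofNat 6 k + 1)) := by
    intro s s' j
    rw [c, c, e1]
    exact mt_prm σ _ _
  refine ⟨fun j hj => h1 (j + Fin.ofNat 6 k) ⟨(a1 s s' j).1 hj.1, (a1 s' s j).1 hj.2⟩,
    fun hj => h2 fun j => ?_, fun hj => h3 fun j => ?_⟩
  · have h4 := (a1 s s' (j - Fin.ofNat 6 k)).1 (hj _)
    rwa [e2] at h4
  · have h4 := (a1 s' s (j - Fin.ofNat 6 k)).1 (hj _)
    rwa [e2] at h4

end Vale.Agent.P032.H567
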