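import Vale.Agent.P032.H728.GD.C
import Vale.Agent.P032.H838.GW.Stat

/-!
# P032: static completeness for the numbering `Cs`

`statCs` : the states `Cs i`, `i < 905`, are the states `H838.GD.C i`, `i < 905`, in another order.
-/

noncomputable section

namespace Vale.Agent.P032.H567

open Vale.Agent.P032.H728.G

/-- the states `Cs j` of a list of indices are the states `H838.GD.C a`, `H838.GD.C (a + 1)`, .. -/
def eqs (l : List ℕ) : ℕ → Bool :=
  List.rec (fun _ => true) (fun j _ ih a =>
    ifr (ifr (Nat.ble j 904) (ifr (Nat.beq (Cs j).1 (H838.GD.C a).1)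
      (Nat.beq (Cs j).2 (H838.GD.C a).2) false) false) (ih (Nat.succ a)) false) l

theorem eqs_ok (l : List ℕ) : ∀ a, eqs l a = true → ∀ i < l.length,
    ∃ j < 905, Cs j = H838.GD.C (a + i) := by
  induction l with
  | nil => intro a _ i hi; exact absurd hi (Nat.not_lt_zero _)
  | cons j l ih =>
    intro a h i hi
    have h1 : ifr (ifr (Nat.ble j 904) (ifr (Nat.beq (Cs j).1 (H838.GD.C a).1)
      (Nat.beq (Cs j).2 (H838.GD.C a).2) false) false) (eqs l (a + 1)) false = true := h
    cases e1 : Nat.ble j 904 with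
    | false => rw [e1, ifr_false, ifr_false] at h1; cases h1
    | true =>
      rw [e1, ifr_true] at h1
      cases e2 : Nat.beq (Cs j).1 (H838.GD.C a).1 with
      | false => rw [e2, ifr_false, ifr_false] at h1; cases h1
      | true =>
        rw [e2, ifr_true] at h1
        cases e3 : Nat.beq (Cs j).2 (H838.GD.C a).2 with
        | false => rw [e3, ifr_false] at h1; cases h1
        | true =>
          rw [e3, ifr_true] at h1
          cases i with
          | zero =>
            exact ⟨j, Nat.lt_succ_of_le (Nat.le_of_ble_eq_true e1),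
              Prod.ext (Nat.eq_of_beq_eq_true e2) (Nat.eq_of_beq_eq_true e3)⟩
          | succ i =>
            obtain ⟨k, hk, hk2⟩ := ih (a + 1) h1 i (Nat.lt_of_succ_lt_succ hi)
            refine ⟨k, hk, ?_⟩
            rw [hk2]
            congr 1
            omega

def p0 : List ℕ :=
  [0, 1, 2, 3, 4, 5, 6, 7, 8, 9, 10, 11, 12, 13, 14, 23, 26, 24, 25, 27, 29, 28, 17, 18, 30,
   31, 32, 33, 38, 34, 35, 45, 15, 16, 19, 21, 20, 22, 36, 43, 37, 44, 39, 41, 40, 42, 46, 50]

theorem q0 : eqs p0 0 = true := by decide +kernel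

def p1 : List ℕ :=
  [48, 47, 51, 49, 52, 53, 55, 54, 61, 56, 57, 67, 58, 59, 65, 74, 60, 64, 62, 63, 70, 66, 71,
   76, 77, 68, 69, 78, 72, 73, 75, 79, 80, 81, 82, 83, 84, 85, 86, 87, 88, 89, 90, 91, 92, 93,
   96, 94]

theorem q1 : eqs p1 48 = true := by decide +kernel

def p2 : List ℕ :=
  [95, 97, 99, 98, 100, 101, 102, 103, 104, 109, 111, 105, 106, 107, 108, 110, 112, 116, 113,
   114, 115, 131, 120, 121, 141, 128, 129, 132, 130, 117, 118, 119, 126, 133, 134, 136, 135,
   123, 125, 137, 122, 124, 127, 138, 139, 140, 142, 143]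

theorem q2 : eqs p2 96 = true := by decide +kernel

def p3 : List ℕ :=
  [149, 151, 154, 155, 157, 152, 153, 156, 144, 145, 150, 146, 147, 148, 158, 161, 163, 164,
   162, 159, 160, 165, 166, 167, 171, 172, 168, 169, 170, 174, 186, 187, 188, 199, 200, 185,
   176, 177, 178, 184, 181, 183, 204, 222, 205, 224, 196, 192]

theorem q3 : eqs p3 144 = true := by decide +kernel

def p4 : List ℕ :=
  [216, 173, 179, 193, 194, 195, 175, 189, 190, 191, 180, 182, 197, 198, 201, 202, 203, 206,
   207, 219, 220, 221, 223, 211, 213, 214, 218, 215, 217, 232, 233, 234, 236, 235, 237, 225,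
   228, 230, 229, 226, 227, 231, 208, 209, 210, 212, 242, 238]

theorem q4 : eqs p4 192 = true := by decide +kernel

def p5 : List ℕ :=
  [239, 244, 245, 246, 240, 243, 241, 247, 248, 250, 251, 249, 256, 257, 259, 255, 252, 266,
   253, 264, 254, 258, 265, 261, 267, 260, 262, 263, 268, 269, 270, 271, 272, 273, 274, 275,
   276, 277, 278, 279, 280, 281, 282, 283, 284, 285, 286, 287]

theorem q5 : eqs p5 240 = true := by decide +kernel

def p6 : List ℕ :=
  [288, 289, 290, 291, 292, 293, 294, 295, 296, 297, 298, 299, 300, 301, 302, 303, 304, 305,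
   306, 307, 308, 309, 310, 311, 312, 313, 314, 315, 316, 317, 318, 319, 320, 321, 322, 323,
   324, 325, 326, 327, 328, 329, 330, 331, 332, 333, 334, 335]

theorem q6 : eqs p6 288 = true := by decide +kernel

def p7 : List ℕ :=
  [336, 337, 338, 341, 347, 342, 343, 340, 354, 367, 356, 370, 363, 339, 344, 345, 346, 348,
   349, 350, 362, 352, 353, 357, 355, 364, 371, 372, 373, 351, 359, 361, 358, 360, 368, 369,
   365, 366, 377, 378, 381, 385, 382, 386, 383, 391, 384, 387]

theorem q7 : eqs p7 336 = true := by decide +kernel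

def p8 : List ℕ :=
  [388, 395, 397, 396, 394, 379, 380, 389, 390, 392, 393, 398, 399, 374, 375, 376, 400, 401,
   403, 402, 404, 410, 405, 406, 413, 409, 412, 407, 408, 411, 415, 414, 417, 423, 424, 425,
   427, 416, 426, 429, 418, 428, 430, 422, 431, 432, 439, 436]

theorem q8 : eqs p8 384 = true := by decide +kernel

def p9 : List ℕ :=
  [445, 419, 433, 440, 437, 435, 441, 438, 446, 447, 420, 434, 449, 421, 448, 442, 443, 444,
   450, 451, 452, 454, 455, 453, 456, 459, 457, 458, 461, 460, 462, 463, 474, 473, 476, 475,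
   481, 479, 477, 480, 478, 467, 466, 465, 464, 468, 469, 471]

theorem q9 : eqs p9 432 = true := by decide +kernel

def p10 : List ℕ :=
  [470, 472, 483, 482, 485, 486, 484, 487, 490, 491, 488, 494, 492, 493, 489, 495, 497, 498,
   496, 499, 509, 508, 501, 500, 503, 502, 505, 504, 507, 506, 511, 510, 513, 512, 514, 515,
   516, 518, 517, 536, 537, 535, 538, 539, 520, 522, 519, 521]

theorem q10 : eqs p10 480 = true := by decide +kernel

def p11 : List ℕ :=
  [528, 523, 525, 524, 530, 529, 527, 526, 532, 534, 531, 533, 540, 541, 543, 542, 550, 551,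
   549, 552, 553, 544, 547, 545, 546, 548, 554, 556, 555, 558, 557, 560, 559, 562, 561, 566,
   565, 567, 564, 563, 570, 569, 568, 573, 574, 576, 578, 571]

theorem q11 : eqs p11 528 = true := by decide +kernel

def p12 : List ℕ :=
  [572, 575, 577, 579, 582, 580, 581, 586, 585, 589, 584, 583, 588, 587, 590, 592, 591, 594,
   593, 595, 598, 599, 596, 597, 602, 603, 601, 600, 604, 606, 607, 605, 608, 609, 610, 611,
   612, 613, 614, 617, 618, 615, 616, 622, 623, 621, 619, 620]

theorem q12 : eqs p12 576 = true := by decide +kernel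

def p13 : List ℕ :=
  [625, 626, 624, 627, 645, 632, 633, 634, 629, 630, 631, 637, 638, 635, 636, 642, 643, 644,
   640, 639, 641, 628, 647, 646, 649, 650, 648, 651, 653, 654, 652, 655, 656, 658, 659, 657,
   660, 662, 661, 664, 663, 665, 668, 666, 667, 670, 671, 669]

theorem q13 : eqs p13 624 = true := by decide +kernel

def p14 : List ℕ :=
  [672, 674, 675, 673, 676, 682, 683, 681, 684, 677, 680, 678, 679, 690, 692, 689, 691, 686,
   685, 688, 687, 693, 694, 696, 695, 698, 697, 700, 699, 702, 701, 704, 703, 706, 705, 708,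
   707, 710, 709, 712, 713, 711, 714, 715, 716, 717, 718, 719]

theorem q14 : eqs p14 672 = true := by decide +kernel

def p15 : List ℕ :=
  [720, 722, 721, 723, 724, 728, 727, 729, 726, 725, 732, 731, 730, 734, 735, 733, 736, 738,
   739, 737, 740, 741, 742, 743, 746, 745, 747, 744, 751, 749, 748, 750, 752, 762, 763, 780,
   761, 764, 777, 783, 769, 781, 785, 784, 788, 787, 772, 770]

theorem q15 : eqs p15 720 = true := by decide +kernel

def p16 : List ℕ :=
  [774, 778, 773, 779, 776, 782, 766, 765, 768, 767, 786, 775, 771, 789, 756, 755, 757, 754,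
   753, 760, 759, 758, 791, 792, 790, 793, 797, 796, 800, 795, 794, 799, 798, 801, 803, 802,
   805, 804, 807, 806, 809, 808, 810, 811, 815, 814, 816, 813]

theorem q16 : eqs p16 768 = true := by decide +kernel

def p17 : List ℕ :=
  [812, 819, 817, 818, 821, 822, 820, 823, 824, 826, 827, 825, 828, 830, 829, 833, 832, 831,
   834, 835, 837, 836, 839, 838, 843, 842, 844, 841, 840, 847, 845, 846, 851, 850, 854, 849,
   848, 853, 852, 855, 857, 858, 856, 860, 863, 859, 866, 862]

theorem q17 : eqs p17 816 = true := by decide +kernel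

def p18 : List ℕ :=
  [861, 865, 864, 867, 870, 874, 868, 873, 876, 871, 869, 884, 879, 872, 880, 881, 882, 875,
   887, 877, 878, 885, 886, 883, 890, 892, 888, 894, 889, 895, 891, 893, 896, 897, 898, 899,
   900, 901, 902, 904, 903]

theorem q18 : eqs p18 864 = true := by decide +kernel

theorem same (i : ℕ) (hi : i < 905) : ∃ j < 905, Cs j = H838.GD.C i := by
  have key : ∀ q r, q < 19 → r < 48 → 48 * q + r < 905 →
      ∃ j < 905, Cs j = H838.GD.C (48 * q + r) := by
    intro q r hq hr hlt
    interval_cases q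

    · exact eqs_ok p0 0 q0 r hr

    · exact eqs_ok p1 48 q1 r hr

    · exact eqs_ok p2 96 q2 r hr

    · exact eqs_ok p3 144 q3 r hr

    · exact eqs_ok p4 192 q4 r hr

    · exact eqs_ok p5 240 q5 r hr

    · exact eqs_ok p6 288 q6 r hr

    · exact eqs_ok p7 336 q7 r hr

    · exact eqs_ok p8 384 q8 r hr

    · exact eqs_ok p9 432 q9 r hr

    · exact eqs_ok p10 480 q10 r hr

    · exact eqs_ok p11 528 q11 r hr

    · exact eqs_ok p12 576 q12 r hr

    · exact eqs_ok p13 624 q13 r hr

    · exact eqs_ok p14 672 q14 r hr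

    · exact eqs_ok p15 720 q15 r hr

    · exact eqs_ok p16 768 q16 r hr

    · exact eqs_ok p17 816 q17 r hr

    · exact eqs_ok p18 864 q18 r (by show r < 41; omega)

  have h3 := key (i / 48) (i % 48) (by omega) (Nat.mod_lt _ (by norm_num)) (by omega)
  rwa [Nat.div_add_mod] at h3

/-- **Static completeness for `Cs`.** -/
theorem statCs : StatC Cs 905 := by
  intro s hs hc
  obtain ⟨i, hi, σ, k, hk, h1, h2⟩ := H838.GW.statC s hs hc
  obtain ⟨j, hj, e⟩ := same i hi
  exact ⟨j, hj, σ, k, hk, by rw [e]; exact h1, by rw [e]; exact h2⟩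

end Vale.Agent.P032.H567
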